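import Vale.Agent.P091.Hump

/-! Almost everywhere divergence of Fourier series in `φ(L)` for `φ(u) = o(u √(log u))`. -/

namespace Vale.Agent.Results.P091.SqrtLog

open MeasureTheory Filter Asymptotics Vale.Agent.P091

theorem result {T : ℝ} [Fact (0 < T)] (φ : ℝ → ℝ) (h0 : ∀ u, 0 ≤ u → 0 ≤ φ u)
    (hm : MonotoneOn φ (Set.Ici 0)) (hφ : φ =o[atTop] fun u => u * √(Real.log u)) :
    ∃ f : AddCircle T → ℂ, Measurable f ∧ Integrable f AddCircle.haarAddCircle ∧
      Integrable (fun x => φ ‖f x‖) AddCircle.haarAddCircle ∧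
      ∀ᵐ x ∂AddCircle.haarAddCircle, ¬BddAbove (Set.range fun N => ‖SN N f x‖) :=
  main h0 hm hφ

end Vale.Agent.Results.P091.SqrtLog
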